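import Vale.Agent.Lib.P323.Choice

open Vale.Agent.Lib.P323

universe u

/-- Fraenkel-Mostowski permutation models, presented by a group `G` and a normal filter `F` of
subgroups; sets of the model with support `H ∈ F` are the `H`-sets with open stabilisers. -/
theorem Vale.Agent.Results.P323.PermModelBarrier.result {G : Type u} [Group G]
    (F : NormalFilter G) :
    -- PP gives AC_wo, and AC_wo says that open subgroups have conjugate-universal open subgroups
    (PP F → ACwo F) ∧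
    (ACwo F ↔ ∀ H ∈ F.carrier, ∃ W ∈ F.carrier, W ≤ H ∧ ∀ L ∈ F.carrier, L ≤ H →
      ∃ g : H, ∀ w ∈ W, (g : G)⁻¹ * w * g ∈ L) ∧
    -- AC holds in the model exactly when `F` has a least member
    (WO F ↔ Principal F) ∧
    -- AC_wo together with choice for `n`-element sets (one `n ≥ 2`) is AC
    (∀ n : ℕ, 2 ≤ n → (ACwo F ∧ Cn F n ↔ Principal F)) ∧
    -- the ordering principle together with AC_wo, or with PP, is AC
    (ACwo F ∧ OP F ↔ Principal F) ∧
    (PP F ∧ OP F ↔ Principal F) ∧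
    -- under PP, a set without proper `n`-cycles for some `n ≥ 2` is well-orderable in the model
    (PP F → ∀ H ∈ F.carrier, ∀ (Ω : Type u) [MulAction H Ω], Cont F H Ω →
      ∀ n : ℕ, 2 ≤ n → (∀ (h : H) (ω : Ω), h ^ n • ω = ω → h • ω = ω) →
        ∃ K ∈ F.carrier, K ≤ H ∧ ∀ h : H, (h : G) ∈ K → ∀ ω : Ω, h • ω = ω) ∧
    -- under PP, a set with a linear order in the model is well-orderable in the model
    (PP F → ∀ H ∈ F.carrier, ∀ (Ω : Type u) [LinearOrder Ω] [MulAction H Ω], Cont F H Ω →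
      (∀ (h : H) (a b : Ω), a < b → h • a < h • b) →
        ∃ K ∈ F.carrier, K ≤ H ∧ ∀ h : H, (h : G) ∈ K → ∀ ω : Ω, h • ω = ω) ∧
    -- under PP, every set of the model embeds in `(H / W) × T`, `T` with trivial action
    (PP F → ∀ H ∈ F.carrier, ∃ W ∈ F.carrier, W ≤ H ∧ ∀ (X : Type u) [MulAction H X],
      Cont F H X → ∃ K ∈ F.carrier, K ≤ H ∧ ∃ j : X → Coset H W × X, Function.Injective j ∧
        ∀ h : H, (h : G) ∈ K → ∀ x : X, j (h • x) = (h • (j x).1, (j x).2)) ∧
    -- under PP, open subgroups `A ≤ B` have a conjugate of `A` agreeing with `B` on an open `R`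
    (PP F → ∀ H A B : Subgroup G, H ∈ F.carrier → A ∈ F.carrier → B ∈ F.carrier → A ≤ B →
      ∃ R ∈ F.carrier, R ≤ H ∧ ∃ g : H, ∀ r ∈ R, r ∈ B ↔ (g : G)⁻¹ * r * g ∈ A) := by
  have hPU : PP F → Universal F := universal_of_PP
  have hP1 : Principal F → WO F := WO_of_principal
  have hP2 : WO F → Principal F := principal_of_WO
  have hCn : ∀ n : ℕ, 2 ≤ n → (ACwo F ∧ Cn F n → Principal F) := fun n hn h =>
    hP2 (WO_of_universal_Cn (universal_of_ACwo h.1) n hn h.2)
  refine ⟨fun h => ACwo_of_universal (hPU h), ⟨universal_of_ACwo, ACwo_of_universal⟩,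
    ⟨hP2, hP1⟩, fun n hn => ⟨hCn n hn, fun h => ⟨ACwo_of_principal h,
      Cn_of_OP (OP_of_principal h) n (by omega)⟩⟩, ⟨fun h => hCn 2 le_rfl
      ⟨h.1, Cn_of_OP h.2 2 (by omega)⟩, fun h => ⟨ACwo_of_principal h, OP_of_principal h⟩⟩,
    ⟨fun h => hCn 2 le_rfl ⟨ACwo_of_universal (hPU h.1), Cn_of_OP h.2 2 (by omega)⟩,
      fun h => ⟨PP_of_principal h, OP_of_principal h⟩⟩,
    fun hPP H hH Ω _ hc n hn hcyc => trivial_of_noCycle hPP hH Ω hc n hn hcyc, ?_, ?_, ?_⟩
  · intro hPP H hH Ω _ _ hc hmono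
    refine trivial_of_noCycle hPP hH Ω hc 2 le_rfl fun h ω hω => ?_
    exact orderPreserving_noCycle h (fun m a b hab => hmono (h ^ m) a b hab) 2 (by omega) ω hω
  · intro hPP H hH
    obtain ⟨W, hW, hWH, hu⟩ := hPU hPP H hH
    exact ⟨W, hW, hWH, fun X _ hc => svc_of_PP hPP hH hW hu X hc⟩
  · intro hPP H A B hH hA hB hAB
    exact trace_of_PP hPP hH hA hB hAB
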